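import Mathlib

open Finset

namespace Vale.Agent.Results.P162.LowerBound

/-- One Thorp shuffle of a deck of `2 * m` cards with coin vector `c`, as a map on positions.
Positions are `0, …, 2m-1` (position `j` of the problem text is `j - 1` here).  The cards in
positions `i` and `m + i` (`i < m`) go to positions `2 i` and `2 i + 1`; the card from the top half
comes first exactly when `c i = false`. -/
def thorpFun (m : ℕ) (c : Fin m → Bool) (x : Fin (2 * m)) : Fin (2 * m) :=
  have hm : 0 < m := by have := x.2; omega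
  ⟨2 * (x.val % m) + (if decide (m ≤ x.val) = c ⟨x.val % m, Nat.mod_lt _ hm⟩ then 0 else 1), by
    have := Nat.mod_lt x.val hm
    split_ifs <;> omega⟩

/-- The law `q_n` (`n = 2 m`) of one Thorp shuffle on the symmetric group: the probability of `g`
is the fraction of the `2 ^ m` coin vectors whose shuffle moves position `x` to `g x` for all `x`. -/
noncomputable def thorpLaw (m : ℕ) (g : Equiv.Perm (Fin (2 * m))) : ℝ :=
  (#{c : Fin m → Bool | ∀ x, g x = thorpFun m c x} : ℝ) / 2 ^ m

/-- Convolution of two functions on the symmetric group. -/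
noncomputable def conv {n : ℕ} (μ ν : Equiv.Perm (Fin n) → ℝ) (g : Equiv.Perm (Fin n)) : ℝ :=
  ∑ h, μ h * ν (h⁻¹ * g)

/-- `t`-fold convolution power (`t = 0`: point mass at the identity). -/
noncomputable def convPow {n : ℕ} (μ : Equiv.Perm (Fin n) → ℝ) : ℕ → Equiv.Perm (Fin n) → ℝ
  | 0 => fun g => if g = 1 then 1 else 0
  | t + 1 => conv μ (convPow μ t)

/-- The uniform law on the symmetric group `S_n`. -/
noncomputable def unif (n : ℕ) (_ : Equiv.Perm (Fin n)) : ℝ := 1 / (n.factorial : ℝ)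

/-- Total variation distance. -/
noncomputable def tv {n : ℕ} (μ ν : Equiv.Perm (Fin n) → ℝ) : ℝ :=
  (1 / 2) * ∑ g, |μ g - ν g|

/-! ### Generalities on convolution -/

section general
variable {n : ℕ}

def IsProb (μ : Equiv.Perm (Fin n) → ℝ) : Prop := (∀ g, 0 ≤ μ g) ∧ ∑ g, μ g = 1

theorem sum_shift (ν : Equiv.Perm (Fin n) → ℝ) (h : Equiv.Perm (Fin n)) :
    ∑ g, ν (h⁻¹ * g) = ∑ g, ν g :=
  Equiv.sum_comp (Equiv.mulLeft h⁻¹) ν

theorem IsProb.conv {μ ν : Equiv.Perm (Fin n) → ℝ} (hμ : IsProb μ) (hν : IsProb ν) :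
    IsProb (conv μ ν) := by
  constructor
  · intro g
    exact Finset.sum_nonneg (fun h _ => mul_nonneg (hμ.1 h) (hν.1 _))
  · unfold LowerBound.conv
    rw [Finset.sum_comm]
    simp_rw [← Finset.mul_sum, sum_shift, hν.2, mul_one, hμ.2]

theorem isProb_convPow {μ : Equiv.Perm (Fin n) → ℝ} (hμ : IsProb μ) (t : ℕ) :
    IsProb (convPow μ t) := by
  induction t with
  | zero =>
    constructor
    · intro g
      show 0 ≤ if g = 1 then (1 : ℝ) else 0
      split_ifs <;> norm_num
    · show ∑ g : Equiv.Perm (Fin n), (if g = 1 then (1 : ℝ) else 0) = 1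
      simp
  | succ t ih => exact hμ.conv ih

theorem card_perm : (Fintype.card (Equiv.Perm (Fin n)) : ℝ) = (n.factorial : ℝ) := by
  rw [Fintype.card_perm, Fintype.card_fin]

theorem tv_conv_le {μ ν : Equiv.Perm (Fin n) → ℝ} (hμ : IsProb μ) :
    tv (conv μ ν) (unif n) ≤ tv ν (unif n) := by
  unfold tv
  apply mul_le_mul_of_nonneg_left _ (by norm_num)
  have h1 : ∀ g, |conv μ ν g - unif n g| ≤ ∑ h, μ h * |ν (h⁻¹ * g) - unif n (h⁻¹ * g)| := by
    intro g
    have : conv μ ν g - unif n g = ∑ h, μ h * (ν (h⁻¹ * g) - unif n (h⁻¹ * g)) := by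
      simp only [mul_sub, Finset.sum_sub_distrib]
      congr 1
      simp only [unif]
      rw [← Finset.sum_mul, hμ.2, one_mul]
    rw [this]
    refine (Finset.abs_sum_le_sum_abs _ _).trans (le_of_eq ?_)
    apply Finset.sum_congr rfl
    intro h _
    rw [abs_mul, abs_of_nonneg (hμ.1 h)]
  calc ∑ g, |conv μ ν g - unif n g|
      ≤ ∑ g, ∑ h, μ h * |ν (h⁻¹ * g) - unif n (h⁻¹ * g)| := Finset.sum_le_sum (fun g _ => h1 g)
    _ = ∑ h, μ h * ∑ g, |ν (h⁻¹ * g) - unif n (h⁻¹ * g)| := by
        rw [Finset.sum_comm]; simp_rw [Finset.mul_sum]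
    _ = ∑ h, μ h * ∑ g, |ν g - unif n g| := by
        apply Finset.sum_congr rfl
        intro h _
        rw [sum_shift (fun g => |ν g - unif n g|) h]
    _ = ∑ g, |ν g - unif n g| := by rw [← Finset.sum_mul, hμ.2, one_mul]

theorem tv_antitone {μ : Equiv.Perm (Fin n) → ℝ} (hμ : IsProb μ) :
    Antitone (fun t => tv (convPow μ t) (unif n)) :=
  antitone_nat_of_succ_le (fun _ => tv_conv_le hμ)

/-- a probability supported in `A` is far from uniform if `A` is small -/
theorem tv_lower {μ : Equiv.Perm (Fin n) → ℝ} (hμ : IsProb μ) (A : Finset (Equiv.Perm (Fin n)))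
    (hA : ∀ g, g ∉ A → μ g = 0) :
    1 - (#A : ℝ) / (n.factorial : ℝ) ≤ tv μ (unif n) := by
  have hN : (0 : ℝ) < (n.factorial : ℝ) := by exact_mod_cast n.factorial_pos
  have h1 : ∑ g ∈ A, μ g = 1 := by
    rw [← hμ.2]
    apply Finset.sum_subset (Finset.subset_univ _)
    intro g _ hg
    exact hA g hg
  have h2 : ∑ g, |μ g - unif n g| = ∑ g ∈ A, |μ g - unif n g| + ∑ g ∈ Aᶜ, |μ g - unif n g| := by
    rw [Finset.sum_add_sum_compl]
  have h3 : ∑ g ∈ A, (μ g - unif n g) ≤ ∑ g ∈ A, |μ g - unif n g| :=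
    Finset.sum_le_sum (fun g _ => le_abs_self _)
  have h4 : ∑ g ∈ Aᶜ, |μ g - unif n g| = (#Aᶜ : ℝ) * (1 / (n.factorial : ℝ)) := by
    rw [← nsmul_eq_mul, ← Finset.sum_const]
    apply Finset.sum_congr rfl
    intro g hg
    rw [hA g (Finset.mem_compl.1 hg), unif, zero_sub, abs_neg, abs_of_nonneg (by positivity)]
  have h5 : ∑ g ∈ A, (μ g - unif n g) = 1 - (#A : ℝ) * (1 / (n.factorial : ℝ)) := by
    rw [Finset.sum_sub_distrib, h1]
    simp [unif]
  have h6 : (#Aᶜ : ℝ) = (n.factorial : ℝ) - #A := by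
    rw [Finset.card_compl, Nat.cast_sub (Finset.card_le_univ _), card_perm]
  unfold tv
  rw [h2, h4, h6]
  have h7 : ((n.factorial : ℝ) - #A) * (1 / (n.factorial : ℝ)) = 1 - (#A : ℝ) / (n.factorial : ℝ) := by
    field_simp
  rw [h7]
  have h8 : (#A : ℝ) * (1 / (n.factorial : ℝ)) = (#A : ℝ) / (n.factorial : ℝ) := by ring
  rw [h5, h8] at h3
  linarith

end general

/-! ### The Thorp shuffle -/

section thorp
variable {m : ℕ}

def IsThorp (m : ℕ) (g : Equiv.Perm (Fin (2 * m))) : Prop :=
  ∃ c : Fin m → Bool, ∀ x, g x = thorpFun m c x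

theorem mod_half {x : ℕ} (hx : x < 2 * m) : x % m = if x < m then x else x - m := by
  split_ifs with h
  · exact Nat.mod_eq_of_lt h
  · rw [Nat.mod_eq_sub_mod (by omega), Nat.mod_eq_of_lt (by omega)]

theorem thorpFun_div (c : Fin m → Bool) (x : Fin (2 * m)) :
    (thorpFun m c x).val / 2 = x.val % m := by
  unfold thorpFun
  simp only
  split_ifs <;> omega

theorem thorpFun_mod (c : Fin m → Bool) (x : Fin (2 * m)) (hm : 0 < m) :
    (thorpFun m c x).val % 2 =
      if decide (m ≤ x.val) = c ⟨x.val % m, Nat.mod_lt _ hm⟩ then 0 else 1 := by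
  unfold thorpFun
  simp only
  split_ifs <;> omega

theorem thorpFun_injective (c : Fin m → Bool) : Function.Injective (thorpFun m c) := by
  intro x y h
  have hm : 0 < m := by have := x.2; omega
  have h1 : x.val % m = y.val % m := by rw [← thorpFun_div c x, ← thorpFun_div c y, h]
  have h2 := thorpFun_mod c x hm
  have h3 := thorpFun_mod c y hm
  rw [h] at h2
  rw [h2] at h3
  have h4 : (⟨x.val % m, Nat.mod_lt _ hm⟩ : Fin m) = ⟨y.val % m, Nat.mod_lt _ hm⟩ := Fin.ext h1
  rw [h4] at h3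
  have h5 : decide (m ≤ x.val) = decide (m ≤ y.val) := by
    generalize c ⟨y.val % m, Nat.mod_lt _ hm⟩ = b at h3
    generalize decide (m ≤ x.val) = b1 at h3 ⊢
    generalize decide (m ≤ y.val) = b2 at h3 ⊢
    cases b <;> cases b1 <;> cases b2 <;> simp_all
  have h6 : m ≤ x.val ↔ m ≤ y.val := by simpa using h5
  rw [mod_half x.2, mod_half y.2] at h1
  apply Fin.ext
  split_ifs at h1 <;> omega

noncomputable def thorpPerm (c : Fin m → Bool) : Equiv.Perm (Fin (2 * m)) :=
  Equiv.ofBijective (thorpFun m c) (Finite.injective_iff_bijective.1 (thorpFun_injective c))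

theorem thorpPerm_eq_iff (c : Fin m → Bool) (g : Equiv.Perm (Fin (2 * m))) :
    thorpPerm c = g ↔ ∀ x, g x = thorpFun m c x := by
  rw [Equiv.ext_iff]
  constructor
  · intro h x; rw [← h x]; rfl
  · intro h x; rw [h x]; rfl

theorem isProb_thorpLaw : IsProb (thorpLaw m) := by
  constructor
  · intro g
    unfold thorpLaw
    positivity
  · unfold thorpLaw
    rw [← Finset.sum_div, ← Nat.cast_sum]
    have h1 : ∑ g : Equiv.Perm (Fin (2 * m)), #{c : Fin m → Bool | ∀ x, g x = thorpFun m c x}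
        = #(Finset.univ : Finset (Fin m → Bool)) := by
      rw [Finset.card_eq_sum_card_fiberwise (f := thorpPerm) (t := Finset.univ)
        (fun _ _ => Finset.mem_coe.2 (Finset.mem_univ _))]
      apply Finset.sum_congr rfl
      intro g _
      congr 1
      apply Finset.filter_congr
      intro c _
      exact (thorpPerm_eq_iff c g).symm
    rw [h1, Finset.card_univ, Fintype.card_fun, Fintype.card_bool, Fintype.card_fin]
    simp

theorem thorpLaw_eq_zero {g : Equiv.Perm (Fin (2 * m))} (hg : ¬ IsThorp m g) :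
    thorpLaw m g = 0 := by
  unfold thorpLaw
  have : ({c : Fin m → Bool | ∀ x, g x = thorpFun m c x} : Finset _) = ∅ := by
    apply Finset.filter_eq_empty_iff.2
    intro c _ hc
    exact hg ⟨c, hc⟩
  rw [this]
  simp

/-- permutations reachable by `t` Thorp shuffles -/
def Reach (m : ℕ) : ℕ → Set (Equiv.Perm (Fin (2 * m)))
  | 0 => {1}
  | t + 1 => {g | ∃ h g', IsThorp m h ∧ g' ∈ Reach m t ∧ g = h * g'}

theorem convPow_support (t : ℕ) (g : Equiv.Perm (Fin (2 * m))) (hg : g ∉ Reach m t) :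
    convPow (thorpLaw m) t g = 0 := by
  induction t generalizing g with
  | zero =>
    show (if g = 1 then (1 : ℝ) else 0) = 0
    rw [if_neg]
    exact hg
  | succ t ih =>
    show ∑ h, thorpLaw m h * convPow (thorpLaw m) t (h⁻¹ * g) = 0
    apply Finset.sum_eq_zero
    intro h _
    by_cases hh : IsThorp m h
    · rw [ih, mul_zero]
      intro h2
      exact hg ⟨h, h⁻¹ * g, hh, h2, by simp⟩
    · rw [thorpLaw_eq_zero hh, zero_mul]

theorem reach_add (a b : ℕ) (g : Equiv.Perm (Fin (2 * m))) (hg : g ∈ Reach m (a + b)) :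
    ∃ g2 ∈ Reach m a, ∃ g1 ∈ Reach m b, g = g2 * g1 := by
  induction a generalizing g with
  | zero =>
    rw [zero_add] at hg
    exact ⟨1, rfl, g, hg, by simp⟩
  | succ a ih =>
    rw [show a + 1 + b = (a + b) + 1 by ring] at hg
    obtain ⟨h, g', hh, hg', rfl⟩ := hg
    obtain ⟨g2, hg2, g1, hg1, rfl⟩ := ih g' hg'
    exact ⟨h * g2, ⟨h, g2, hh, hg2, rfl⟩, g1, hg1, by rw [mul_assoc]⟩

/-- shift by half a deck -/
def sh (m : ℕ) (y : Fin (2 * m)) : Fin (2 * m) :=
  if h : y.val < m then ⟨y.val + m, by omega⟩ else ⟨y.val - m, by have := y.2; omega⟩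

theorem sh_val (y : Fin (2 * m)) : (sh m y).val = if y.val < m then y.val + m else y.val - m := by
  unfold sh
  split_ifs <;> rfl

theorem sh_sh (y : Fin (2 * m)) : sh m (sh m y) = y := by
  apply Fin.ext
  rw [sh_val, sh_val]
  have := y.2
  split_ifs <;> omega

theorem sh_bijective : Function.Bijective (sh m) :=
  (Function.Involutive.bijective sh_sh)

theorem sh_lt_iff (y : Fin (2 * m)) : (sh m y).val < m ↔ ¬ y.val < m := by
  rw [sh_val]
  have := y.2
  split_ifs <;> omega

theorem sh_mod (y : Fin (2 * m)) : (sh m y).val % m = y.val % m := by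
  rw [mod_half (sh m y).2, mod_half y.2, sh_val]
  have := y.2
  split_ifs <;> omega

theorem thorp_sh (c : Fin m → Bool) (y : Fin (2 * m)) :
    ((thorpFun m c (sh m y)).val % 2 = 0 ↔ ¬ (thorpFun m c y).val % 2 = 0) := by
  have hm : 0 < m := by have := y.2; omega
  rw [thorpFun_mod c _ hm, thorpFun_mod c _ hm]
  have h4 : (⟨(sh m y).val % m, Nat.mod_lt _ hm⟩ : Fin m) = ⟨y.val % m, Nat.mod_lt _ hm⟩ :=
    Fin.ext (sh_mod y)
  rw [h4]
  have h5 : decide (m ≤ (sh m y).val) = !decide (m ≤ y.val) := by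
    have := sh_lt_iff y
    by_cases h : y.val < m
    · have h6 : ¬ (sh m y).val < m := by rw [this]; simpa using h
      simp [not_le.2 h, not_lt.1 h6]
    · have h6 : (sh m y).val < m := by rw [this]; exact h
      simp [not_lt.1 h, not_le.2 h6]
  rw [h5]
  generalize c ⟨y.val % m, Nat.mod_lt _ hm⟩ = b
  generalize decide (m ≤ y.val) = b1
  cases b <;> cases b1 <;> simp

theorem count_half {σ : Equiv.Perm (Fin (2 * m))} (hσ : IsThorp m σ) (P : Fin (2 * m) → Prop)
    [DecidablePred P] (hP : ∀ y, P (sh m y) ↔ P y) :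
    2 * #{y | P y ∧ (σ y).val % 2 = 0} = #{y | P y} := by
  obtain ⟨c, hc⟩ := hσ
  have h1 : #{y | P y ∧ (σ y).val % 2 = 0} = #{y | P y ∧ ¬ (σ y).val % 2 = 0} := by
    apply Finset.card_bijective (sh m) sh_bijective
    intro y
    simp only [Finset.mem_filter, Finset.mem_univ, true_and]
    rw [hP, hc, hc, thorp_sh c y, not_not]
  have h2 := Finset.card_filter_add_card_filter_not (s := ({y | P y} : Finset (Fin (2 * m))))
    (fun y => (σ y).val % 2 = 0)
  rw [Finset.filter_filter, Finset.filter_filter] at h2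
  omega

/-- the statistic: number of cards starting in an even position (0-indexed) and ending in the top half -/
def kcount (m : ℕ) (g : Equiv.Perm (Fin (2 * m))) : ℕ :=
  #{x : Fin (2 * m) | x.val % 2 = 0 ∧ (g x).val < m}

end thorp

section uniform
variable {m : ℕ}

/-- `kcount` changes when the cards in an even position `p0` and an odd position `p1` are exchanged,
provided exactly one of them ends in the top half. -/
theorem kcount_swap_ne (π : Equiv.Perm (Fin (2 * m))) (p0 p1 : Fin (2 * m))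
    (hp0 : p0.val % 2 = 0) (hp1 : p1.val % 2 = 1)
    (hX : ¬ ((π p0).val < m ↔ (π p1).val < m)) :
    kcount m (π * Equiv.swap p0 p1) ≠ kcount m π := by
  have hother : ∀ x : Fin (2 * m), x.val % 2 = 0 → x ≠ p0 → Equiv.swap p0 p1 x = x := by
    intro x hx hx0
    apply Equiv.swap_apply_of_ne_of_ne hx0
    intro h
    rw [h] at hx
    omega
  unfold kcount
  by_cases h0 : (π p0).val < m
  · have h1 : ¬ (π p1).val < m := by tauto
    have hset : ({x : Fin (2 * m) | x.val % 2 = 0 ∧ ((π * Equiv.swap p0 p1) x).val < m} : Finset _)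
        = ({x : Fin (2 * m) | x.val % 2 = 0 ∧ (π x).val < m} : Finset _).erase p0 := by
      ext x
      simp only [Finset.mem_filter, Finset.mem_univ, true_and, Finset.mem_erase]
      rw [Equiv.Perm.mul_apply]
      by_cases hx0 : x = p0
      · subst hx0
        rw [Equiv.swap_apply_left]
        tauto
      · constructor
        · rintro ⟨ha, hb⟩
          rw [hother x ha hx0] at hb
          exact ⟨hx0, ha, hb⟩
        · rintro ⟨_, ha, hb⟩
          rw [hother x ha hx0]
          exact ⟨ha, hb⟩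
    have hmem : p0 ∈ ({x : Fin (2 * m) | x.val % 2 = 0 ∧ (π x).val < m} : Finset _) := by
      simp only [Finset.mem_filter, Finset.mem_univ, true_and]
      exact ⟨hp0, h0⟩
    rw [hset, Finset.card_erase_of_mem hmem]
    have := Finset.card_pos.2 ⟨p0, hmem⟩
    omega
  · have h1 : (π p1).val < m := by tauto
    have hset : ({x : Fin (2 * m) | x.val % 2 = 0 ∧ ((π * Equiv.swap p0 p1) x).val < m} : Finset _)
        = insert p0 ({x : Fin (2 * m) | x.val % 2 = 0 ∧ (π x).val < m} : Finset _) := by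
      ext x
      simp only [Finset.mem_filter, Finset.mem_univ, true_and, Finset.mem_insert]
      rw [Equiv.Perm.mul_apply]
      by_cases hx0 : x = p0
      · subst hx0
        rw [Equiv.swap_apply_left]
        tauto
      · constructor
        · rintro ⟨ha, hb⟩
          rw [hother x ha hx0] at hb
          exact Or.inr ⟨ha, hb⟩
        · rintro (h | ⟨ha, hb⟩)
          · exact absurd h hx0
          · rw [hother x ha hx0]
            exact ⟨ha, hb⟩
    have hmem : p0 ∉ ({x : Fin (2 * m) | x.val % 2 = 0 ∧ (π x).val < m} : Finset _) := by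
      simp only [Finset.mem_filter, Finset.mem_univ, true_and]
      tauto
    rw [hset, Finset.card_insert_of_notMem hmem]
    omega

theorem card_level_lt (hm : 2 ≤ m) (K : ℕ) :
    4 * #{g : Equiv.Perm (Fin (2 * m)) | kcount m g = K} < 3 * (2 * m).factorial := by
  classical
  obtain ⟨p0, hp0⟩ : ∃ p0 : Fin (2 * m), p0.val = 0 := ⟨⟨0, by omega⟩, rfl⟩
  obtain ⟨p1, hp1⟩ : ∃ p1 : Fin (2 * m), p1.val = 1 := ⟨⟨1, by omega⟩, rfl⟩
  obtain ⟨pm, hpm⟩ : ∃ pm : Fin (2 * m), pm.val = m := ⟨⟨m, by omega⟩, rfl⟩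
  have h01 : p0 ≠ p1 := by
    intro h
    rw [h] at hp0
    omega
  have hp0m : p0 ≠ pm := by
    intro h
    rw [h] at hp0
    omega
  set A : Finset (Equiv.Perm (Fin (2 * m))) := {g | kcount m g = K} with hA
  set X : Finset (Equiv.Perm (Fin (2 * m))) := {π | ¬ ((π p0).val < m ↔ (π p1).val < m)} with hX
  have memA : ∀ π, π ∈ A ↔ kcount m π = K := by
    intro π; simp only [hA, Finset.mem_filter, Finset.mem_univ, true_and]
  have memX : ∀ π, π ∈ X ↔ ¬ ((π p0).val < m ↔ (π p1).val < m) := by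
    intro π; simp only [hX, Finset.mem_filter, Finset.mem_univ, true_and]
  have hN : #X + #Xᶜ = (2 * m).factorial := by
    rw [Finset.card_add_card_compl, Fintype.card_perm, Fintype.card_fin]
  -- step 1 : at most half of X lies in A
  have hstep1 : #(A ∩ X) ≤ #(X \ A) := by
    apply Finset.card_le_card_of_injOn (fun π => π * Equiv.swap p0 p1)
    · intro π hπ
      rw [Finset.mem_coe, Finset.mem_inter, memA, memX] at hπ
      rw [Finset.mem_coe, Finset.mem_sdiff, memA, memX]
      constructor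
      · rw [Equiv.Perm.mul_apply, Equiv.Perm.mul_apply, Equiv.swap_apply_left,
          Equiv.swap_apply_right]
        tauto
      · rw [← hπ.1]
        exact kcount_swap_ne π p0 p1 (by omega) (by omega) hπ.2
    · intro π _ π' _ h
      exact mul_right_cancel h
  have hsplitX : #(A ∩ X) + #(X \ A) = #X := by
    rw [Finset.inter_comm, Finset.card_inter_add_card_sdiff]
  -- step 2 : the complement of X is smaller than X
  set X' : Finset (Equiv.Perm (Fin (2 * m))) := {π ∈ X | π p0 ≠ sh m (π p1)} with hX'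
  have memX' : ∀ π, π ∈ X' ↔ π ∈ X ∧ π p0 ≠ sh m (π p1) := by
    intro π; simp only [hX', Finset.mem_filter]
  have hstep2a : #Xᶜ ≤ #X' := by
    apply Finset.card_le_card_of_injOn (fun π => Equiv.swap (π p1) (sh m (π p1)) * π)
    · intro π hπ
      rw [Finset.mem_coe, Finset.mem_compl, memX, not_not] at hπ
      have hne1 : π p0 ≠ π p1 := fun h => h01 (π.injective h)
      have hne2 : π p0 ≠ sh m (π p1) := by
        intro h
        have := sh_lt_iff (π p1)
        rw [← h] at this
        tauto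
      have e0 : (Equiv.swap (π p1) (sh m (π p1)) * π) p0 = π p0 := by
        rw [Equiv.Perm.mul_apply]
        exact Equiv.swap_apply_of_ne_of_ne hne1 hne2
      have e1 : (Equiv.swap (π p1) (sh m (π p1)) * π) p1 = sh m (π p1) := by
        rw [Equiv.Perm.mul_apply, Equiv.swap_apply_left]
      rw [Finset.mem_coe, memX', memX, e0, e1, sh_sh, sh_lt_iff]
      exact ⟨by tauto, hne1⟩
    · intro π _ π' _ h
      simp only at h
      have e1 : sh m (π p1) = sh m (π' p1) := by
        have := congrArg (fun σ : Equiv.Perm (Fin (2 * m)) => σ p1) h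
        simpa [Equiv.Perm.mul_apply] using this
      have e2 : π p1 = π' p1 := sh_bijective.1 e1
      rw [e2] at h
      exact mul_left_cancel h
  have hstep2b : #X' < #X := by
    apply Finset.card_lt_card
    rw [Finset.ssubset_iff_of_subset (Finset.filter_subset _ _)]
    have e0 : Equiv.swap p1 pm p0 = p0 := Equiv.swap_apply_of_ne_of_ne h01 hp0m
    refine ⟨Equiv.swap p1 pm, ?_, ?_⟩
    · rw [memX, e0, Equiv.swap_apply_left, hp0, hpm]
      omega
    · rw [memX', e0, Equiv.swap_apply_left]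
      intro h
      apply h.2
      apply Fin.ext
      rw [sh_val, hp0, hpm]
      simp
  have hAle : #A ≤ #(A ∩ X) + #Xᶜ := by
    have h1 : #A = #(A ∩ X) + #(A \ X) := (Finset.card_inter_add_card_sdiff A X).symm
    have h2 : #(A \ X) ≤ #Xᶜ := by
      apply Finset.card_le_card
      intro g hg
      rw [Finset.mem_sdiff] at hg
      exact Finset.mem_compl.2 hg.2
    omega
  omega

end uniform

section pow2
variable {e : ℕ}

theorem nat_mod_div (a e k : ℕ) (hk : k ≤ e) : a % 2 ^ e / 2 ^ k = (a / 2 ^ k) % 2 ^ (e - k) := by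
  have h2 : 2 ^ e = 2 ^ k * 2 ^ (e - k) := by rw [← pow_add]; congr 1; omega
  rw [h2, Nat.mod_mul_right_div_self]

theorem nat_add_div (a f : ℕ) : (a + 2 ^ (f + 1)) / 2 ^ f % 2 = a / 2 ^ f % 2 := by
  have hpos : 0 < 2 ^ f := by positivity
  rw [pow_succ, mul_comm (2 ^ f) 2, Nat.add_mul_div_right _ _ hpos]
  omega

theorem reach_div (k : ℕ) (hk : k ≤ e + 1) (g : Equiv.Perm (Fin (2 * 2 ^ e)))
    (hg : g ∈ Reach (2 ^ e) k) (x : Fin (2 * 2 ^ e)) :
    (g x).val / 2 ^ k = x.val % 2 ^ (e + 1 - k) := by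
  induction k generalizing g x with
  | zero =>
    have : g = 1 := hg
    subst this
    have hx := x.2
    rw [Nat.mod_eq_of_lt (by rw [Nat.sub_zero, pow_succ]; omega)]
    simp
  | succ k ih =>
    obtain ⟨h, g', ⟨c, hc⟩, hg', rfl⟩ := hg
    have h1 := ih (by omega) g' hg' x
    show (h (g' x)).val / 2 ^ (k + 1) = _
    rw [hc, pow_succ', ← Nat.div_div_eq_div_mul, thorpFun_div]
    rw [nat_mod_div _ _ _ (by omega), h1, Nat.mod_mod_of_dvd]
    · congr 2; omega
    · exact pow_dvd_pow _ (by omega)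

theorem kcount_reach (f : ℕ) (g : Equiv.Perm (Fin (2 * 2 ^ (f + 1))))
    (hg : g ∈ Reach (2 ^ (f + 1)) (2 * (f + 1))) :
    2 * kcount (2 ^ (f + 1)) g = #{y : Fin (2 * 2 ^ (f + 1)) | (y.val / 2 ^ f) % 2 = 0} := by
  rw [show 2 * (f + 1) = (f + 1) + (f + 1) by ring] at hg
  obtain ⟨τ2, h2, g1, hg1, rfl⟩ := reach_add _ _ _ hg
  obtain ⟨σ, τ1, hσ, h1, rfl⟩ := hg1
  rw [← count_half hσ (fun y => (y.val / 2 ^ f) % 2 = 0)]
  · congr 1
    unfold kcount
    apply Finset.card_bijective τ1 τ1.bijective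
    intro x
    simp only [Finset.mem_filter, Finset.mem_univ, true_and]
    have e1 := reach_div (e := f + 1) f (by omega) τ1 h1 x
    have e2 := reach_div (e := f + 1) (f + 1) (by omega) τ2 h2 (σ (τ1 x))
    rw [show f + 1 + 1 - f = 2 by omega] at e1
    rw [show f + 1 + 1 - (f + 1) = 1 by omega] at e2
    rw [e1]
    have e3 : ((τ2 * (σ * τ1)) x) = τ2 (σ (τ1 x)) := rfl
    rw [e3]
    have e4 : (τ2 (σ (τ1 x))).val < 2 ^ (f + 1) ↔ (τ2 (σ (τ1 x))).val / 2 ^ (f + 1) = 0 := by
      rw [Nat.div_eq_zero_iff]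
      have : 2 ^ (f + 1) ≠ 0 := by positivity
      tauto
    rw [e4, e2]
    omega
  · intro y
    rw [sh_val]
    split_ifs with h
    · rw [nat_add_div]
    · have h3 : y.val = (y.val - 2 ^ (f + 1)) + 2 ^ (f + 1) := by omega
      conv_rhs => rw [h3, nat_add_div]

theorem tv_gt (f : ℕ) :
    1 / 4 < tv (convPow (thorpLaw (2 ^ (f + 1))) (2 * (f + 1))) (unif (2 * 2 ^ (f + 1))) := by
  classical
  set K : ℕ := #{y : Fin (2 * 2 ^ (f + 1)) | (y.val / 2 ^ f) % 2 = 0} / 2 with hK
  set A : Finset (Equiv.Perm (Fin (2 * 2 ^ (f + 1)))) := {g | kcount (2 ^ (f + 1)) g = K} with hA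
  have hsupp : ∀ g, g ∉ A → convPow (thorpLaw (2 ^ (f + 1))) (2 * (f + 1)) g = 0 := by
    intro g hg
    apply convPow_support
    intro hr
    apply hg
    have := kcount_reach f g hr
    simp only [hA, Finset.mem_filter, Finset.mem_univ, true_and]
    omega
  have h1 := tv_lower (isProb_convPow isProb_thorpLaw _) A hsupp
  have hm : 2 ≤ 2 ^ (f + 1) := by
    calc 2 = 2 ^ 1 := by norm_num
      _ ≤ 2 ^ (f + 1) := Nat.pow_le_pow_right (by norm_num) (by omega)
  have h2 := card_level_lt hm K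
  rw [← hA] at h2
  have hN : (0 : ℝ) < ((2 * 2 ^ (f + 1)).factorial : ℝ) := by exact_mod_cast Nat.factorial_pos _
  have h3 : (4 : ℝ) * #A < 3 * ((2 * 2 ^ (f + 1)).factorial : ℝ) := by exact_mod_cast h2
  have h4 : (#A : ℝ) / ((2 * 2 ^ (f + 1)).factorial : ℝ) < 3 / 4 := by
    rw [div_lt_iff₀ hN]
    linarith
  linarith

theorem tv_zero_gt : 1 / 4 < tv (convPow (thorpLaw (2 ^ 0)) 0) (unif (2 * 2 ^ 0)) := by
  have hsupp : ∀ g, g ∉ ({1} : Finset (Equiv.Perm (Fin (2 * 2 ^ 0)))) →
      convPow (thorpLaw (2 ^ 0)) 0 g = 0 := by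
    intro g hg
    apply convPow_support
    intro hr
    apply hg
    rw [Finset.mem_singleton]
    exact hr
  have h1 := tv_lower (isProb_convPow isProb_thorpLaw _) _ hsupp
  have h2 : ((2 * 2 ^ 0).factorial : ℝ) = 2 := by norm_num [Nat.factorial]
  rw [h2, Finset.card_singleton] at h1
  norm_num at h1
  linarith

end pow2

/-- **Main result.**  For a deck of `n = 2 ^ d` cards (`d ≥ 1`; here `n = 2 * 2 ^ (d - 1)`), every
time `t` at which the Thorp shuffle is within total variation distance `1/4` of uniform satisfies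
`t ≥ 2 d - 1`.  Hence `t_mix(2 ^ d) ≥ 2 d - 1 = 2 log₂ n - 1`. -/
theorem result (d : ℕ) (hd : 1 ≤ d) (t : ℕ)
    (h : tv (convPow (thorpLaw (2 ^ (d - 1))) t) (unif (2 * 2 ^ (d - 1))) ≤ 1 / 4) :
    2 * d - 1 ≤ t := by
  by_contra hlt
  obtain ⟨e, rfl⟩ : ∃ e, d = e + 1 := ⟨d - 1, by omega⟩
  rw [Nat.add_sub_cancel] at h
  have hle : t ≤ 2 * e := by omega
  have hanti := tv_antitone (isProb_thorpLaw (m := 2 ^ e)) hle
  simp only at hanti
  rcases e with _ | f
  · have := tv_zero_gt
    simp only [Nat.mul_zero] at hanti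
    linarith
  · have := tv_gt f
    linarith

end Vale.Agent.Results.P162.LowerBound
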